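import Mathlib

/-!
# Packing/covering partitions for families of (possibly infinite) matroids
-/

namespace Vale.Agent.Lib.P068

open Matroid

variable {α Θ : Type*}

/-- A matroid is uniform if every subset of its ground set is independent or spanning. -/
def IsUniform (M : Matroid α) : Prop := ∀ X ⊆ M.E, M.Indep X ∨ M.Spanning X

/-- A packing/covering partition for a family of matroids on the common ground set `E`:
`E = P ⊔ C`, pairwise disjoint sets `S i ⊆ P` spanning `M i ↾ P`, and sets `I i ⊆ C` independent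
in the contraction `M i . C = ((M i)✶ ↾ C)✶` whose union is `C`. -/
def HasPackingCovering (E : Set α) (M : Θ → Matroid α) : Prop :=
  ∃ P C : Set α, P ∪ C = E ∧ Disjoint P C ∧ ∃ S I : Θ → Set α,
    (∀ i, S i ⊆ P) ∧ (∀ i, I i ⊆ C) ∧ (Pairwise fun i j => Disjoint (S i) (S j)) ∧
    (∀ i, ((M i) ↾ P).closure (S i) = P) ∧ (∀ i, (((M i)✶ ↾ C)✶).Indep (I i)) ∧ ⋃ i, I i = C

end Vale.Agent.Lib.P068
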