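import Mathlib

/-!
# Transfinite greedy packing or covering for uniform matroids
-/

namespace Vale.Agent.Lib.P068

open Set

set_option linter.unusedSectionVars false

variable {α Θ : Type*}

section

variable (M : Θ → Matroid α) (R : Set α) (r : Θ → Θ → Prop) [IsWellOrder Θ r]

open Classical in
/-- the greedy choice: a base of `M i` inside what is left of `R`, if there is one -/
noncomputable def greedy : Θ → Set α :=
  IsWellFounded.fix r (fun i ih =>
    if h : ∃ B, (M i).IsBase B ∧ B ⊆ R \ ⋃ (j : Θ) (hj : r j i), ih j hj then h.choose else ∅)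

/-- what is left of `R` before step `i` -/
def rem (i : Θ) : Set α := R \ ⋃ (j : Θ) (_ : r j i), greedy M R r j

open Classical in
theorem greedy_eq (i : Θ) : greedy M R r i =
    if h : ∃ B, (M i).IsBase B ∧ B ⊆ rem M R r i then h.choose else ∅ := by
  unfold greedy
  rw [IsWellFounded.fix_eq]
  rfl

theorem greedy_isBase {i : Θ} (h : ∃ B, (M i).IsBase B ∧ B ⊆ rem M R r i) :
    (M i).IsBase (greedy M R r i) := by
  rw [greedy_eq, dif_pos h]
  exact h.choose_spec.1

theorem greedy_subset (i : Θ) : greedy M R r i ⊆ rem M R r i := by
  classical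
  rw [greedy_eq]
  by_cases h : ∃ B, (M i).IsBase B ∧ B ⊆ rem M R r i
  · rw [dif_pos h]; exact h.choose_spec.2
  · rw [dif_neg h]; exact empty_subset _

theorem greedy_disjoint {i j : Θ} (hij : i ≠ j) :
    Disjoint (greedy M R r i) (greedy M R r j) := by
  have key : ∀ {i j : Θ}, r j i → Disjoint (greedy M R r i) (greedy M R r j) := by
    intro i j hji
    rw [Set.disjoint_left]
    intro x hx hx'
    have := (greedy_subset M R r i hx).2
    apply this
    simp only [mem_iUnion]
    exact ⟨j, hji, hx'⟩
  rcases trichotomous_of r i j with h | h | h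
  · exact (key h).symm
  · exact absurd h hij
  · exact key h

/-- **Greedy dichotomy.** For matroids all of whose subsets of `R` are independent or spanning,
either there are pairwise disjoint bases inside `R`, or `R` is covered by independent sets. -/
theorem packing_or_covering_aux (_hr : IsWellOrder Θ r)
    (hU : ∀ i, ∀ X ⊆ R, (M i).Indep X ∨ (M i).Spanning X) :
    (∃ B : Θ → Set α, (∀ i, (M i).IsBase (B i)) ∧ (∀ i, B i ⊆ R) ∧
      Pairwise fun i j => Disjoint (B i) (B j)) ∨
    (∃ I : Θ → Set α, (∀ i, (M i).Indep (I i)) ∧ ⋃ i, I i = R) := by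
  classical
  by_cases hall : ∀ i, ∃ B, (M i).IsBase B ∧ B ⊆ rem M R r i
  · left
    exact ⟨greedy M R r, fun i => greedy_isBase M R r (hall i),
      fun i => (greedy_subset M R r i).trans sdiff_subset, fun i j hij => greedy_disjoint M R r hij⟩
  · right
    push Not at hall
    have hwf : WellFounded r := IsWellFounded.wf
    set T : Set Θ := {i | ∀ B, (M i).IsBase B → ¬ B ⊆ rem M R r i} with hT
    have hTne : T.Nonempty := hall
    set k := hwf.min T hTne with hk
    have hkT : k ∈ T := hwf.min_mem T hTne
    have hmin : ∀ j, r j k → ∃ B, (M j).IsBase B ∧ B ⊆ rem M R r j := by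
      intro j hj
      by_contra hcon
      push Not at hcon
      exact hwf.not_lt_min T hcon hj
    have hind : (M k).Indep (rem M R r k) := by
      rcases hU k (rem M R r k) sdiff_subset with h | h
      · exact h
      · obtain ⟨B, hB, hBs⟩ := h.exists_isBase_subset
        exact absurd hBs (hkT B hB)
    refine ⟨fun i => if r i k then greedy M R r i else if i = k then rem M R r k else ∅, ?_, ?_⟩
    · intro i
      by_cases h1 : r i k
      · simp only [h1, if_true]
        exact (greedy_isBase M R r (hmin i h1)).indep
      · by_cases h2 : i = k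
        · subst h2
          simp only [h1, if_false, if_true]
          exact hind
        · simp only [h1, h2, if_false]
          exact (M i).empty_indep
    · apply Subset.antisymm
      · intro x hx
        obtain ⟨i, hi⟩ := mem_iUnion.1 hx
        by_cases h1 : r i k
        · simp only [h1, if_true] at hi
          exact (greedy_subset M R r i hi).1
        · by_cases h2 : i = k
          · subst h2
            simp only [h1, if_false, if_true] at hi
            exact hi.1
          · simp only [h1, h2, if_false] at hi
            exact absurd hi (notMem_empty x)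
      · intro x hx
        by_cases hx' : x ∈ ⋃ (j : Θ) (_ : r j k), greedy M R r j
        · simp only [mem_iUnion] at hx'
          obtain ⟨j, hj, hxj⟩ := hx'
          exact mem_iUnion.2 ⟨j, by simp only [hj, if_true]; exact hxj⟩
        · refine mem_iUnion.2 ⟨k, ?_⟩
          have hirr : ¬ r k k := irrefl_of r k
          simp only [hirr, if_false, if_true]
          exact ⟨hx, hx'⟩

end

theorem packing_or_covering (M : Θ → Matroid α) (R : Set α)
    (hU : ∀ i, ∀ X ⊆ R, (M i).Indep X ∨ (M i).Spanning X) :
    (∃ B : Θ → Set α, (∀ i, (M i).IsBase (B i)) ∧ (∀ i, B i ⊆ R) ∧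
      Pairwise fun i j => Disjoint (B i) (B j)) ∨
    (∃ I : Θ → Set α, (∀ i, (M i).Indep (I i)) ∧ ⋃ i, I i = R) :=
  packing_or_covering_aux M R WellOrderingRel inferInstance hU

end Vale.Agent.Lib.P068
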