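import Vale.Agent.Lib.P068.Defs
import Vale.Agent.Lib.P068.Greedy

/-!
# Packing/covering for families with at most one non-uniform member
-/

namespace Vale.Agent.Lib.P068

open Set Matroid

variable {α Θ : Type*}

theorem hasPackingCovering_of_packing (E : Set α) (M : Θ → Matroid α) (hE : ∀ i, (M i).E = E)
    (B : Θ → Set α) (hB : ∀ i, (M i).IsBase (B i)) (hd : Pairwise fun i j => Disjoint (B i) (B j)) :
    HasPackingCovering E M := by
  refine ⟨E, ∅, by simp, by simp, B, fun _ => ∅, ?_, fun _ => Subset.rfl, hd, ?_, ?_, by simp⟩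
  · intro i; rw [← hE i]; exact (hB i).subset_ground
  · intro i
    conv_lhs => rw [← hE i, restrict_ground_eq_self]
    rw [(hB i).closure_eq, hE i]
  · intro i; exact Matroid.empty_indep _

theorem hasPackingCovering_of_covering (E : Set α) (M : Θ → Matroid α) (hE : ∀ i, (M i).E = E)
    (I : Θ → Set α) (hI : ∀ i, (M i).Indep (I i)) (hc : ⋃ i, I i = E) :
    HasPackingCovering E M := by
  refine ⟨∅, E, by simp, by simp, fun _ => ∅, I, fun _ => Subset.rfl, ?_, ?_, ?_, ?_, hc⟩
  · intro i; rw [← hE i]; exact (hI i).subset_ground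
  · intro i j _; simp
  · intro i
    have h := ((M i) ↾ (∅ : Set α)).closure_subset_ground ∅
    rw [restrict_ground_eq] at h
    exact Subset.antisymm h (empty_subset _)
  · intro i
    have : ((M i)✶ ↾ E)✶ = M i := by
      have h1 : (M i)✶.E = E := by rw [dual_ground, hE i]
      rw [← h1, restrict_ground_eq_self, dual_dual]
    rw [this]; exact hI i

/-- **Packing/covering for families with at most one non-uniform member.** -/
theorem hasPackingCovering_of_uniform (E : Set α) (M : Θ → Matroid α) (hE : ∀ i, (M i).E = E)
    (hU : ∀ i j, i ≠ j → IsUniform (M i) ∨ IsUniform (M j)) : HasPackingCovering E M := by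
  classical
  by_cases hΘ : Nonempty Θ
  · -- choose the exceptional index
    obtain ⟨i₀, hi₀⟩ : ∃ i₀ : Θ, ∀ i, i ≠ i₀ → IsUniform (M i) := by
      by_cases hall : ∀ i, IsUniform (M i)
      · exact ⟨hΘ.some, fun i _ => hall i⟩
      · push Not at hall
        obtain ⟨i₀, h0⟩ := hall
        refine ⟨i₀, fun i hi => ?_⟩
        rcases hU i i₀ hi with h | h
        · exact h
        · exact absurd h h0
    obtain ⟨B₀, hB₀⟩ := (M i₀).exists_isBase
    have hB₀E : B₀ ⊆ E := by rw [← hE i₀]; exact hB₀.subset_ground
    rcases packing_or_covering (fun i : {i // i ≠ i₀} => M i.1) (E \ B₀)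
      (fun i X hX => hi₀ i.1 i.2 X (by rw [hE]; exact hX.trans sdiff_subset)) with
      ⟨B, hB, hBR, hd⟩ | ⟨I, hI, hc⟩
    · refine hasPackingCovering_of_packing E M hE
        (fun i => if h : i = i₀ then B₀ else B ⟨i, h⟩) ?_ ?_
      · intro i
        by_cases h : i = i₀
        · subst h; simp only [dif_pos]; exact hB₀
        · simp only [h, dif_neg, not_false_eq_true]; exact hB ⟨i, h⟩
      · intro i j hij
        by_cases h : i = i₀ <;> by_cases h' : j = i₀
        · exact absurd (h.trans h'.symm) hij
        · simp only [h, h', dif_pos, dif_neg, not_false_eq_true]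
          exact (disjoint_sdiff_left.mono_left (hBR ⟨j, h'⟩)).symm
        · simp only [h, h', dif_pos, dif_neg, not_false_eq_true]
          exact disjoint_sdiff_left.mono_left (hBR ⟨i, h⟩)
        · simp only [h, h', dif_neg, not_false_eq_true]
          exact hd (fun hcon => hij (congrArg Subtype.val hcon))
    · refine hasPackingCovering_of_covering E M hE
        (fun i => if h : i = i₀ then B₀ else I ⟨i, h⟩) ?_ ?_
      · intro i
        by_cases h : i = i₀
        · subst h; simp only [dif_pos]; exact hB₀.indep
        · simp only [h, dif_neg, not_false_eq_true]; exact hI ⟨i, h⟩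
      · apply Subset.antisymm
        · intro x hx
          obtain ⟨i, hi⟩ := mem_iUnion.1 hx
          by_cases h : i = i₀
          · simp only [h, dif_pos] at hi; exact hB₀E hi
          · simp only [h, dif_neg, not_false_eq_true] at hi
            have : x ∈ ⋃ i, I i := mem_iUnion.2 ⟨⟨i, h⟩, hi⟩
            rw [hc] at this
            exact this.1
        · intro x hx
          by_cases hxB : x ∈ B₀
          · exact mem_iUnion.2 ⟨i₀, by simp only [dif_pos]; exact hxB⟩
          · have : x ∈ ⋃ i, I i := by rw [hc]; exact ⟨hx, hxB⟩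
            obtain ⟨⟨i, h⟩, hi⟩ := mem_iUnion.1 this
            exact mem_iUnion.2 ⟨i, by simp only [h, dif_neg, not_false_eq_true]; exact hi⟩
  · -- the empty family
    have hemp : IsEmpty Θ := not_nonempty_iff.1 hΘ
    exact hasPackingCovering_of_packing E M hE (fun _ => ∅) (fun i => (hemp.false i).elim)
      (fun i => (hemp.false i).elim)

end Vale.Agent.Lib.P068
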